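import Vale.Agent.P075.Main

open MeasureTheory Vale.Agent.P075

theorem Vale.Agent.Results.P075.A_full.result :
    ∃ C : ℝ, ∀ F₀ F₁ F₂ : ℝ × ℝ → ℝ,
      MemLp F₀ 3 quad2 → MemLp F₁ 3 quad2 → MemLp F₂ 3 quad2 →
      (∀ k : ℤ, Summable fun n : Adm => locForm F₀ F₁ F₂ k n) ∧
      ∀ (S : Finset ℤ) (ε : ℤ → ℝ), (∀ k, |ε k| ≤ 1) →
        |dyadForm S ε F₀ F₁ F₂| ≤ C * (eLpNorm F₀ 3 quad2).toReal *
          (eLpNorm F₁ 3 quad2).toReal * (eLpNorm F₂ 3 quad2).toReal :=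
  ⟨54, fun _ _ _ h0 h1 h2 =>
    ⟨fun k => (summable_abs h0 h1 h2 k).of_abs, fun S ε hε => main h0 h1 h2 S ε hε⟩⟩
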